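import Vale.Agent.P032.S5.H225.Germ

/-!
# P032, row (L1): the D-points `v` on the circle of a D-centre `z` with `T v = T z` (class EQ)

`Irr.list_eq (h : Irr U T) (hz : DPt T z a b c d) (hO : Only T z a b c d) (hv : dist v z = 1)
  (hT : T v = T z) (hD : ∃ p q r s, DPt T v p q r s) :
  ∃ τ : ℝ, (τ = 1 ∨ τ = -1) ∧ (DPt T v a c b d ∨ DPt T v a d b c) ∧
    (∀ᶠ t : ℝ in 𝓝[>] 0, T (hb z v τ t) = {a, b}) ∧
    ∀ᶠ t : ℝ in 𝓝[>] 0, T (hb z v (-τ) t) = {c, d}`

The frequency hypothesis is not needed (it is a consequence).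
-/

open Set Filter Topology Metric

noncomputable section

namespace Vale.Agent.P032.Six

variable {k : ℕ} {U : Fin k → Set ℂ} {T : ℂ → Set (Fin k)} {z v : ℂ} {a b c d : Fin k}

/-- relabelling of a two-pair point: the three pairings of its four colours -/
theorem DPt.relabel {p q r s : Fin k} (hp : DPt T v p q r s) (hT : T v = {a, b, c, d})
    (hab : a ≠ b) (hac : a ≠ c) (had : a ≠ d) (hbc : b ≠ c) (hbd : b ≠ d) (hcd : c ≠ d) :
    DPt T v a b c d ∨ DPt T v a c b d ∨ DPt T v a d b c := by
  have ha : a ∈ T v := by rw [hT]; simp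
  have hb : b ∈ T v := by rw [hT]; simp
  have hc : c ∈ T v := by rw [hT]; simp
  have hd : d ∈ T v := by rw [hT]; simp
  have key2 : ∀ q s, DPt T v a q b s →
      DPt T v a b c d ∨ DPt T v a c b d ∨ DPt T v a d b c := by
    intro q s hp
    have hc' := hc
    have hd' := hd
    rw [hp.pal] at hc' hd'
    simp only [mem_insert_iff, mem_singleton_iff] at hc' hd'
    rcases hc' with h1 | h1 | h1 | h1
    · exact absurd h1.symm hac
    · rcases hd' with h2 | h2 | h2 | h2
      · exact absurd h2.symm had
      · exact absurd (h1.trans h2.symm) hcd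
      · exact absurd h2.symm hbd
      · subst h1 h2
        exact Or.inr (Or.inl hp)
    · exact absurd h1.symm hbc
    · rcases hd' with h2 | h2 | h2 | h2
      · exact absurd h2.symm had
      · subst h1 h2
        exact Or.inr (Or.inr hp)
      · exact absurd h2.symm hbd
      · exact absurd (h1.trans h2.symm) hcd
  have key : ∀ q r s, DPt T v a q r s →
      DPt T v a b c d ∨ DPt T v a c b d ∨ DPt T v a d b c := by
    intro q r s hp
    have hb' := hb
    rw [hp.pal] at hb'
    simp only [mem_insert_iff, mem_singleton_iff] at hb'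
    rcases hb' with h1 | h1 | h1 | h1
    · exact absurd h1.symm hab
    · subst h1
      have hc' := hc
      have hd' := hd
      rw [hp.pal] at hc' hd'
      simp only [mem_insert_iff, mem_singleton_iff] at hc' hd'
      rcases hc' with h1 | h1 | h1 | h1
      · exact absurd h1.symm hac
      · exact absurd h1.symm hbc
      · rcases hd' with h2 | h2 | h2 | h2
        · exact absurd h2.symm had
        · exact absurd h2.symm hbd
        · exact absurd (h1.trans h2.symm) hcd
        · subst h1 h2
          exact Or.inl hp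
      · rcases hd' with h2 | h2 | h2 | h2
        · exact absurd h2.symm had
        · exact absurd h2.symm hbd
        · subst h1 h2
          exact Or.inl hp.swap34
        · exact absurd (h1.trans h2.symm) hcd
    · subst h1
      exact key2 _ _ hp
    · subst h1
      exact key2 _ _ hp.swap34
  have ha' := ha
  rw [hp.pal] at ha'
  simp only [mem_insert_iff, mem_singleton_iff] at ha'
  rcases ha' with h1 | h1 | h1 | h1
  · subst h1
    exact key _ _ _ hp
  · subst h1
    exact key _ _ _ hp.swap12
  · subst h1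
    exact key _ _ _ hp.swap
  · subst h1
    exact key _ _ _ hp.swap.swap12

/-- the relabelling with respect to a two-pair centre with the same palette -/
theorem DPt.relabel_of {p q r s : Fin k} (hp : DPt T v p q r s) (hz : DPt T z a b c d)
    (hT : T v = T z) : DPt T v a b c d ∨ DPt T v a c b d ∨ DPt T v a d b c :=
  hp.relabel (hT.trans hz.pal) hz.ab hz.ac hz.ad hz.bc hz.bd hz.cd

/-- **(L1), class EQ**: a D-point `v` on the circle of the D-centre `z` with `T v = T z` is crossed,
and a direct junction of an exact `ab`-arc and an exact `cd`-arc -/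
theorem Irr.list_eq (h : Irr U T) (hz : DPt T z a b c d) (hO : Only T z a b c d)
    (hv : dist v z = 1) (hT : T v = T z) (hD : ∃ p q r s, DPt T v p q r s) :
    ∃ τ : ℝ, (τ = 1 ∨ τ = -1) ∧ (DPt T v a c b d ∨ DPt T v a d b c) ∧
      (∀ᶠ t : ℝ in 𝓝[>] 0, T (hb z v τ t) = {a, b}) ∧
      ∀ᶠ t : ℝ in 𝓝[>] 0, T (hb z v (-τ) t) = {c, d} := by
  have ha : a ∈ T z := by rw [hz.pal]; simp
  have hb' : b ∈ T z := by rw [hz.pal]; simp
  have hc : c ∈ T z := by rw [hz.pal]; simp
  have hd : d ∈ T z := by rw [hz.pal]; simp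
  obtain ⟨p, q, r, s, hp⟩ := hD
  rcases hp.relabel_of hz hT with h1 | h1 | h1
  · exact (h.germ_eq_same hO ha hb' hc hd h1 hv).elim
  · obtain ⟨τ, h2, h3, h4⟩ := h.germ_eq hO ha hb' hc hd h1 hv
    exact ⟨τ, h2, Or.inl h1, h3, h4⟩
  · obtain ⟨τ, h2, h3, h4⟩ := h.germ_eq hO.swap34 ha hb' hd hc h1 hv
    refine ⟨τ, h2, Or.inr h1, h3, ?_⟩
    filter_upwards [h4] with t ht
    rw [ht, pair_comm]

end Vale.Agent.P032.Six
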